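import Mathlib.Algebra.Order.BigOperators.Group.Finset
import Mathlib.Algebra.BigOperators.Fin
import Mathlib.Algebra.BigOperators.Intervals
import Mathlib.Data.Fintype.Pi
import Mathlib.Data.Fintype.BigOperators
import Mathlib.NumberTheory.Harmonic.Bounds
import Mathlib.Tactic

/-!
# P181: almost all partitions of `q a²` with at most `a` parts have first part `O (q a log² a)`

`G a m`: multiplicities `g j` of the columns of length `j + 1`, for a diagram with at most `a` rows
and `m` boxes.
-/

open Finset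

namespace Vale.Agent.P181.H883

/-- column multiplicities: `g j` columns of length `j + 1`, `m` boxes -/
def G (a m : ℕ) : Finset (Fin a → ℕ) :=
  (Fintype.piFinset fun _ => range (m + 1)).filter fun g => ∑ j : Fin a, ((j : ℕ) + 1) * g j = m

theorem mem_G {a m : ℕ} {g : Fin a → ℕ} : g ∈ G a m ↔ ∑ j : Fin a, ((j : ℕ) + 1) * g j = m := by
  unfold G
  rw [mem_filter, Fintype.mem_piFinset]
  constructor
  · exact fun h => h.2
  · intro h
    refine ⟨fun j => ?_, h⟩
    rw [mem_range]
    have h1 : ((j : ℕ) + 1) * g j ≤ ∑ j : Fin a, ((j : ℕ) + 1) * g j :=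
      single_le_sum (f := fun j : Fin a => ((j : ℕ) + 1) * g j) (fun _ _ => Nat.zero_le _)
        (mem_univ j)
    have h2 : g j ≤ ((j : ℕ) + 1) * g j := Nat.le_mul_of_pos_left _ (Nat.succ_pos _)
    omega

/-- adding `l` columns of length `j + 1` -/
theorem card_add {a : ℕ} (m : ℕ) (j : Fin a) (l : ℕ) :
    #(G a m) ≤ #((G a (m + ((j : ℕ) + 1) * l)).filter fun g => l ≤ g j) := by
  refine card_le_card_of_injOn (fun g => Function.update g j (g j + l)) ?_ ?_
  · intro g hg
    have hg' : ∑ i : Fin a, ((i : ℕ) + 1) * g i = m := mem_G.1 hg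
    simp only [coe_filter, Set.mem_ofPred_eq, Function.update_self]
    refine ⟨mem_G.2 ?_, by omega⟩
    rw [← hg', ← Finset.add_sum_erase univ (fun i : Fin a => ((i : ℕ) + 1) * g i) (mem_univ j),
      ← Finset.add_sum_erase univ
        (fun i : Fin a => ((i : ℕ) + 1) * Function.update g j (g j + l) i) (mem_univ j)]
    have h1 : ∑ i ∈ univ.erase j, ((i : ℕ) + 1) * Function.update g j (g j + l) i =
        ∑ i ∈ univ.erase j, ((i : ℕ) + 1) * g i := by
      refine sum_congr rfl fun i hi => ?_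
      rw [Function.update_of_ne (ne_of_mem_erase hi)]
    rw [h1, Function.update_self]
    ring
  · intro g _ g' _ h
    funext i
    have h1 := congrFun h i
    by_cases hi : i = j
    · subst hi
      simp only [Function.update_self] at h1
      omega
    · simpa only [Function.update_of_ne hi] using h1

theorem card_mono {a : ℕ} (ha : 0 < a) {m m' : ℕ} (h : m ≤ m') : #(G a m) ≤ #(G a m') := by
  have h1 := card_add m (⟨0, ha⟩ : Fin a) (m' - m)
  have h2 : m + (((⟨0, ha⟩ : Fin a) : ℕ) + 1) * (m' - m) = m' := by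
    simp only [zero_add, one_mul]
    omega
  rw [h2] at h1
  exact h1.trans (card_filter_le _ _)

/-- the main inequality -/
theorem grow {a : ℕ} (ha : 0 < a) {m t : ℕ} (htm : t ≤ m) :
    (∑ j : Fin a, ((j : ℕ) + 1) * (t / ((j : ℕ) + 1))) * #(G a (m - t)) ≤ m * #(G a m) := by
  have h1 : m * #(G a m) = ∑ j : Fin a, ((j : ℕ) + 1) * ∑ g ∈ G a m, g j := by
    simp only [mul_sum]
    rw [sum_comm]
    rw [sum_congr rfl fun g hg => mem_G.1 hg]
    rw [sum_const, smul_eq_mul, mul_comm]
  rw [h1, sum_mul]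
  refine sum_le_sum fun j _ => ?_
  rw [mul_assoc]
  refine Nat.mul_le_mul_left _ ?_
  have h2 : ∀ g ∈ G a m, ∑ l ∈ range (t / ((j : ℕ) + 1)), (if l + 1 ≤ g j then 1 else 0) ≤ g j := by
    intro g _
    rw [← card_filter]
    calc #((range (t / ((j : ℕ) + 1))).filter fun l => l + 1 ≤ g j)
        ≤ #(range (g j)) := by
          refine card_le_card fun l hl => ?_
          rw [mem_range]
          have := (mem_filter.1 hl).2
          omega
      _ = g j := card_range _
  refine le_trans ?_ (sum_le_sum h2)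
  rw [sum_comm]
  have h3 : ∀ l ∈ range (t / ((j : ℕ) + 1)),
      #(G a (m - t)) ≤ ∑ g ∈ G a m, (if l + 1 ≤ g j then 1 else 0) := by
    intro l hl
    rw [mem_range] at hl
    have h4 : ((j : ℕ) + 1) * (l + 1) ≤ t := by
      calc ((j : ℕ) + 1) * (l + 1) ≤ ((j : ℕ) + 1) * (t / ((j : ℕ) + 1)) :=
            Nat.mul_le_mul_left _ hl
        _ ≤ t := Nat.mul_div_le _ _
    have h5 := card_add (m - ((j : ℕ) + 1) * (l + 1)) j (l + 1)
    rw [Nat.sub_add_cancel (h4.trans htm)] at h5
    rw [← card_filter]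
    exact (card_mono ha (by omega)).trans h5
  calc t / ((j : ℕ) + 1) * #(G a (m - t))
      = ∑ _l ∈ range (t / ((j : ℕ) + 1)), #(G a (m - t)) := by
        rw [sum_const, card_range, smul_eq_mul]
    _ ≤ _ := sum_le_sum h3

/-- doubling -/
theorem double {a q m : ℕ} (ha : 0 < a) (hq : 1 ≤ q) (hm : m ≤ q * a * a) (ht : 3 * q * a ≤ m) :
    2 * #(G a (m - 3 * q * a)) ≤ #(G a m) := by
  have h1 := grow ha ht
  have hm0 : 0 < m := lt_of_lt_of_le (by positivity) ht
  have h2 : 2 * m ≤ ∑ j : Fin a, ((j : ℕ) + 1) * (3 * q * a / ((j : ℕ) + 1)) := by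
    have h3 : ∀ j : Fin a, 3 * q * a - a ≤ ((j : ℕ) + 1) * (3 * q * a / ((j : ℕ) + 1)) := by
      intro j
      have h4 := Nat.div_add_mod (3 * q * a) ((j : ℕ) + 1)
      have h5 := Nat.mod_lt (3 * q * a) (show 0 < (j : ℕ) + 1 by omega)
      have h6 := j.2
      omega
    have h7 : a * (3 * q * a - a) ≤ ∑ j : Fin a, ((j : ℕ) + 1) * (3 * q * a / ((j : ℕ) + 1)) := by
      calc a * (3 * q * a - a) = ∑ _j : Fin a, (3 * q * a - a) := by
            rw [sum_const, card_univ, Fintype.card_fin, smul_eq_mul]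
        _ ≤ _ := sum_le_sum fun j _ => h3 j
    refine le_trans ?_ h7
    have h8 : 2 * (q * a) ≤ 3 * q * a - a := by
      have : a ≤ q * a := Nat.le_mul_of_pos_left _ hq
      have h9 : 3 * q * a = q * a + q * a + q * a := by ring
      omega
    calc 2 * m ≤ 2 * (q * a * a) := by omega
      _ = a * (2 * (q * a)) := by ring
      _ ≤ a * (3 * q * a - a) := Nat.mul_le_mul_left _ h8
  have h10 : m * (2 * #(G a (m - 3 * q * a))) ≤ m * #(G a m) := by
    calc m * (2 * #(G a (m - 3 * q * a))) = 2 * m * #(G a (m - 3 * q * a)) := by ring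
      _ ≤ _ := Nat.mul_le_mul_right _ h2
      _ ≤ _ := h1
  exact Nat.le_of_mul_le_mul_left h10 hm0

theorem pow_double {a q : ℕ} (ha : 0 < a) (hq : 1 ≤ q) (k : ℕ) {m : ℕ} (hm : m ≤ q * a * a)
    (ht : 3 * q * a * k ≤ m) : 2 ^ k * #(G a (m - 3 * q * a * k)) ≤ #(G a m) := by
  induction k with
  | zero => simp
  | succ k ih =>
    have h1 : 3 * q * a * (k + 1) = 3 * q * a * k + 3 * q * a := by ring
    have h2 := ih (by omega)
    have h3 := double (m := m - 3 * q * a * k) ha hq (by omega) (by omega)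
    have h4 : m - 3 * q * a * (k + 1) = m - 3 * q * a * k - 3 * q * a := by omega
    rw [h4]
    calc 2 ^ (k + 1) * #(G a (m - 3 * q * a * k - 3 * q * a))
        = 2 ^ k * (2 * #(G a (m - 3 * q * a * k - 3 * q * a))) := by ring
      _ ≤ 2 ^ k * #(G a (m - 3 * q * a * k)) := Nat.mul_le_mul_left _ h3
      _ ≤ _ := h2

/-- many boxes in the columns of one length: rare -/
theorem rare {a q : ℕ} (ha : 0 < a) (hq : 1 ≤ q) (k : ℕ) (j : Fin a) :
    2 ^ k * #((G a (q * a * a)).filter fun g => 3 * q * a * k ≤ ((j : ℕ) + 1) * g j) ≤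
      #(G a (q * a * a)) := by
  by_cases hk : 3 * q * a * k ≤ q * a * a
  · refine le_trans (Nat.mul_le_mul_left _ ?_) (pow_double ha hq k le_rfl hk)
    -- remove `l` columns
    set R := 3 * q * a * k with hR
    set l := (R + j) / ((j : ℕ) + 1) with hl
    have h1 : R ≤ ((j : ℕ) + 1) * l := by
      have h4 := Nat.div_add_mod (R + j) ((j : ℕ) + 1)
      have h5 := Nat.mod_lt (R + j) (show 0 < (j : ℕ) + 1 by omega)
      rw [← hl] at h4
      omega
    have h2 : ∀ x, R ≤ ((j : ℕ) + 1) * x → l ≤ x := by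
      intro x hx
      rw [hl]
      have : (R + j) / ((j : ℕ) + 1) < x + 1 := by
        rw [Nat.div_lt_iff_lt_mul (show 0 < (j : ℕ) + 1 by omega)]
        have h6 : (x + 1) * ((j : ℕ) + 1) = ((j : ℕ) + 1) * x + (j + 1) := by ring
        omega
      omega
    refine le_trans ?_ (card_mono ha (m := q * a * a - ((j : ℕ) + 1) * l) (by omega))
    refine card_le_card_of_injOn (fun g => Function.update g j (g j - l)) ?_ ?_
    · intro g hg
      simp only [coe_filter, Set.mem_ofPred_eq] at hg
      have hg' : ∑ i : Fin a, ((i : ℕ) + 1) * g i = q * a * a := mem_G.1 hg.1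
      have h3 := h2 _ hg.2
      refine mem_coe.2 (mem_G.2 ?_)
      rw [← hg', ← Finset.add_sum_erase univ (fun i : Fin a => ((i : ℕ) + 1) * g i) (mem_univ j),
        ← Finset.add_sum_erase univ
          (fun i : Fin a => ((i : ℕ) + 1) * Function.update g j (g j - l) i) (mem_univ j)]
      have h1 : ∑ i ∈ univ.erase j, ((i : ℕ) + 1) * Function.update g j (g j - l) i =
          ∑ i ∈ univ.erase j, ((i : ℕ) + 1) * g i := by
        refine sum_congr rfl fun i hi => ?_
        rw [Function.update_of_ne (ne_of_mem_erase hi)]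
      rw [h1, Function.update_self, Nat.mul_sub]
      have h7 : ((j : ℕ) + 1) * l ≤ ((j : ℕ) + 1) * g j := Nat.mul_le_mul_left _ h3
      omega
    · intro g hg g' hg' h
      simp only [coe_filter, Set.mem_ofPred_eq] at hg hg'
      have h3 := h2 _ hg.2
      have h3' := h2 _ hg'.2
      funext i
      have h4 := congrFun h i
      by_cases hi : i = j
      · subst hi
        simp only [Function.update_self] at h4
        omega
      · simpa only [Function.update_of_ne hi] using h4
  · have h0 : (G a (q * a * a)).filter (fun g => 3 * q * a * k ≤ ((j : ℕ) + 1) * g j) = ∅ := by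
      refine filter_eq_empty_iff.2 fun g hg h => ?_
      have hg' : ∑ i : Fin a, ((i : ℕ) + 1) * g i = q * a * a := mem_G.1 hg
      have h1 : ((j : ℕ) + 1) * g j ≤ ∑ j : Fin a, ((j : ℕ) + 1) * g j :=
        single_le_sum (f := fun j : Fin a => ((j : ℕ) + 1) * g j) (fun _ _ => Nat.zero_le _)
          (mem_univ j)
      omega
    rw [h0]
    simp

/-- few columns, for almost all diagrams -/
theorem almostG {a q : ℕ} (ha : 0 < a) (hq : 1 ≤ q) (k : ℕ) :
    2 ^ k * #((G a (q * a * a)).filter fun g =>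
      (3 * q * a * k : ℝ) * (1 + Real.log a) < ((∑ j, g j : ℕ) : ℝ)) ≤ a * #(G a (q * a * a)) := by
  have h1 : ((G a (q * a * a)).filter fun g =>
      (3 * q * a * k : ℝ) * (1 + Real.log a) < ((∑ j, g j : ℕ) : ℝ)) ⊆
      univ.biUnion fun j : Fin a =>
        (G a (q * a * a)).filter fun g => 3 * q * a * k ≤ ((j : ℕ) + 1) * g j := by
    intro g hg
    rw [mem_filter] at hg
    rw [mem_biUnion]
    by_contra hcon
    push Not at hcon
    have h2 : ∀ j : Fin a, ((j : ℕ) + 1) * g j < 3 * q * a * k := by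
      intro j
      have h3 := hcon j (mem_univ j)
      rw [mem_filter, not_and, not_le] at h3
      exact h3 hg.1
    have h4 : ((∑ j, g j : ℕ) : ℝ) ≤ (3 * q * a * k : ℝ) * (1 + Real.log a) := by
      push_cast
      calc ∑ j : Fin a, (g j : ℝ)
          ≤ ∑ j : Fin a, (3 * q * a * k : ℝ) * ((j : ℝ) + 1)⁻¹ := by
            refine sum_le_sum fun j _ => ?_
            have h5 : (((j : ℕ) : ℝ) + 1) * (g j : ℝ) ≤ 3 * q * a * k := by
              exact_mod_cast (h2 j).le
            have h6 : (0 : ℝ) < ((j : ℕ) : ℝ) + 1 := by positivity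
            rw [← div_eq_mul_inv, le_div_iff₀ h6, mul_comm]
            exact h5
        _ = (3 * q * a * k : ℝ) * ((harmonic a : ℚ) : ℝ) := by
            rw [← mul_sum]
            have h7 : ((harmonic a : ℚ) : ℝ) = ∑ j : Fin a, (((j : ℕ) : ℝ) + 1)⁻¹ := by
              rw [harmonic, Rat.cast_sum, ← Fin.sum_univ_eq_sum_range
                (fun i => (((((i + 1 : ℕ) : ℚ)⁻¹ : ℚ)) : ℝ))]
              refine sum_congr rfl fun j _ => ?_
              push_cast
              rfl
            rw [h7]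
        _ ≤ _ := by
            refine mul_le_mul_of_nonneg_left ?_ (by positivity)
            exact harmonic_le_one_add_log a
    exact absurd hg.2 (not_lt.2 h4)
  calc 2 ^ k * _ ≤ 2 ^ k * ∑ j : Fin a,
        #((G a (q * a * a)).filter fun g => 3 * q * a * k ≤ ((j : ℕ) + 1) * g j) :=
        Nat.mul_le_mul_left _ ((card_le_card h1).trans card_biUnion_le)
    _ = ∑ j : Fin a, 2 ^ k *
        #((G a (q * a * a)).filter fun g => 3 * q * a * k ≤ ((j : ℕ) + 1) * g j) := mul_sum _ _ _
    _ ≤ ∑ _j : Fin a, #(G a (q * a * a)) := sum_le_sum fun j _ => rare ha hq k j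
    _ = a * #(G a (q * a * a)) := by
        rw [sum_const, card_univ, Fintype.card_fin, smul_eq_mul]

/-- the diagram with column multiplicities `g` -/
def Lam {a : ℕ} (g : Fin a → ℕ) (i : Fin a) : ℕ := ∑ j ∈ Ici i, g j

theorem Lam_anti {a : ℕ} (g : Fin a → ℕ) : Antitone (Lam g) := fun _ _ h =>
  sum_le_sum_of_subset (Ici_subset_Ici.2 h)

theorem sum_Lam {a : ℕ} (g : Fin a → ℕ) : ∑ i, Lam g i = ∑ j : Fin a, ((j : ℕ) + 1) * g j := by
  unfold Lam
  rw [sum_comm' (t' := univ) (s' := fun j => Iic j) (by intro x y; simp)]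
  refine sum_congr rfl fun j _ => ?_
  rw [sum_const, Fin.card_Iic, smul_eq_mul]

theorem Lam_zero {a : ℕ} (ha : 0 < a) (g : Fin a → ℕ) : Lam g ⟨0, ha⟩ = ∑ j, g j := by
  unfold Lam
  congr 1
  ext j
  simp [Fin.le_def]

/-- the next entry -/
def nx {a : ℕ} (l : Fin a → ℕ) (i : Fin a) : ℕ := if h : (i : ℕ) + 1 < a then l ⟨i + 1, h⟩ else 0

theorem Lam_step {a : ℕ} (g : Fin a → ℕ) (i : Fin a) : Lam g i = g i + nx (Lam g) i := by
  unfold nx Lam
  split_ifs with h
  · have h1 : Ici i = insert i (Ici (⟨i + 1, h⟩ : Fin a)) := by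
      ext j
      simp only [mem_Ici, mem_insert, Fin.le_def, Fin.ext_iff]
      omega
    rw [h1, sum_insert]
    simp only [mem_Ici, Fin.le_def, not_le]
    omega
  · have h1 : Ici i = {i} := by
      ext j
      simp only [mem_Ici, mem_singleton, Fin.le_def, Fin.ext_iff]
      have := j.2
      omega
    rw [h1, sum_singleton, add_zero]

theorem Lam_inj {a : ℕ} : Function.Injective (Lam : (Fin a → ℕ) → Fin a → ℕ) := by
  intro g g' h
  funext i
  have h1 := Lam_step g i
  have h2 := Lam_step g' i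
  rw [h] at h1
  omega

theorem Lam_diff {a : ℕ} {l : Fin a → ℕ} (hl : Antitone l) : Lam (fun i => l i - nx l i) = l := by
  have h : ∀ n : ℕ, ∀ i : Fin a, a - i = n → Lam (fun i => l i - nx l i) i = l i := by
    intro n
    induction n using Nat.strong_induction_on with
    | _ n ih =>
      intro i hi
      rw [Lam_step]
      have h1 : nx (Lam fun i => l i - nx l i) i = nx l i := by
        unfold nx
        split_ifs with h
        · exact ih (a - (i + 1)) (by omega) ⟨i + 1, h⟩ rfl
        · rfl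
      rw [h1]
      have h2 : nx l i ≤ l i := by
        unfold nx
        split_ifs with h
        · exact hl (Fin.le_def.2 (Nat.le_succ _))
        · exact Nat.zero_le _
      omega
  funext i
  exact h _ i rfl

open scoped Classical in
/-- partitions of `m` with at most `a` parts -/
noncomputable def PS (a m : ℕ) : Finset (Fin a → ℕ) :=
  (Fintype.piFinset fun _ => range (m + 1)).filter fun l => Antitone l ∧ ∑ i, l i = m

theorem mem_PS {a m : ℕ} {l : Fin a → ℕ} : l ∈ PS a m ↔ Antitone l ∧ ∑ i, l i = m := by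
  unfold PS
  rw [mem_filter, Fintype.mem_piFinset]
  constructor
  · exact fun h => h.2
  · intro h
    refine ⟨fun j => ?_, h⟩
    rw [mem_range]
    have h1 : l j ≤ ∑ i, l i := single_le_sum (f := l) (fun _ _ => Nat.zero_le _) (mem_univ j)
    have h2 := h.2
    omega

theorem card_G_le {a m : ℕ} : #(G a m) ≤ #(PS a m) := by
  refine card_le_card_of_injOn Lam ?_ Lam_inj.injOn
  intro g hg
  refine mem_coe.2 (mem_PS.2 ⟨Lam_anti g, ?_⟩)
  rw [sum_Lam]
  exact mem_G.1 hg

/-- **Almost all partitions of `q a²` with at most `a` parts have first part at most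
`3 q a k (1 + log a)`:** the others are a proportion at most `a / 2 ^ k`. -/
theorem almost {a q : ℕ} (ha : 0 < a) (hq : 1 ≤ q) (k : ℕ) :
    2 ^ k * #((PS a (q * a * a)).filter fun l =>
      (3 * q * a * k : ℝ) * (1 + Real.log a) < (l ⟨0, ha⟩ : ℝ)) ≤
      a * #(PS a (q * a * a)) := by
  refine le_trans (Nat.mul_le_mul_left _ ?_) ((almostG ha hq k).trans
    (Nat.mul_le_mul_left _ card_G_le))
  refine card_le_card_of_injOn (fun l i => l i - nx l i) ?_ ?_
  · intro l hl
    rw [mem_coe, mem_filter, mem_PS] at hl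
    have h1 := Lam_diff hl.1.1
    rw [mem_coe, mem_filter, mem_G]
    refine ⟨?_, ?_⟩
    · rw [← sum_Lam, h1]
      exact hl.1.2
    · rw [← Lam_zero ha, h1]
      exact hl.2
  · intro l hl l' hl' h
    rw [mem_coe, mem_filter, mem_PS] at hl hl'
    rw [← Lam_diff hl.1.1, ← Lam_diff hl'.1.1]
    exact congrArg Lam h

end Vale.Agent.P181.H883
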